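import Vale.Agent.P183.R2.H668.KW.Spec

set_option autoImplicit false

/-!
Row B: the number of graphs without four-cycles, from the bound for the number of neighbourhoods.
-/

namespace Vale.Agent.P183.R2.H76

open Finset Vale.Agent.P183.R2.H668.KW

/-- the vertex `v` is joined to the vertices in `I` -/
def reb {V : Type} (v : V) (G : SimpleGraph V) (I : Finset V) : SimpleGraph V :=
  SimpleGraph.fromRel (fun x y => G.Adj x y ∨ (x = v ∧ y ∈ I))

/-- the edges at `v` are deleted -/
def del {V : Type} (v : V) (G : SimpleGraph V) : SimpleGraph V :=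
  SimpleGraph.fromRel (fun x y => G.Adj x y ∧ x ≠ v ∧ y ≠ v)

theorem del_adj {V : Type} (v : V) (G : SimpleGraph V) (x y : V) :
    (del v G).Adj x y ↔ G.Adj x y ∧ x ≠ v ∧ y ≠ v := by
  unfold del
  rw [SimpleGraph.fromRel_adj]
  constructor
  · rintro ⟨_, h | h⟩
    · exact h
    · exact ⟨h.1.symm, h.2.2, h.2.1⟩
  · intro h
    exact ⟨h.1.ne, Or.inl h⟩

/-- the graphs without four-cycles with all edges inside `T` -/
def FT {V : Type} (T : Finset V) : Set (SimpleGraph V) :=
  {G | C4Free G ∧ ∀ x y, G.Adj x y → x ∈ T}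

theorem cover {V : Type} [Finite V] [DecidableEq V] (T : Finset V) (hT : T.Nonempty)
    (G : SimpleGraph V) (hG : G ∈ FT T) :
    ∃ v ∈ T, ∃ G' ∈ FT (T.erase v), ∃ I ∈ nbhds G' (T.erase v), reb v G' I = G := by
  obtain ⟨hC, hE⟩ := hG
  obtain ⟨v, hv, hmin⟩ := T.exists_min_image (fun x => {y | G.Adj x y}.ncard) hT
  refine ⟨v, hv, del v G, ⟨?_, ?_⟩, (Set.toFinite {y | G.Adj v y}).toFinset, ⟨?_, ?_, ?_⟩, ?_⟩
  · intro a b x y hab h1 h2 h3 h4
    rw [del_adj] at h1 h2 h3 h4
    exact hC a b x y hab h1.1 h2.1 h3.1 h4.1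
  · intro x y h
    rw [del_adj] at h
    exact Finset.mem_erase.2 ⟨h.2.1, hE x y h.1⟩
  · intro y hy
    rw [Set.Finite.mem_toFinset] at hy
    exact Finset.mem_erase.2 ⟨hy.ne.symm, hE y v hy.symm⟩
  · intro x hx
    have hx' := Finset.mem_erase.1 hx
    rw [← Set.ncard_eq_toFinset_card]
    refine (hmin x hx'.2).trans ?_
    refine le_trans (Set.ncard_le_ncard (t := insert v {y | (del v G).Adj x y}) ?_
      (Set.toFinite _)) (Set.ncard_insert_le _ _)
    intro y hy
    by_cases h : y = v
    · exact Or.inl h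
    · refine Or.inr ?_
      show (del v G).Adj x y
      rw [del_adj]
      exact ⟨hy, hx'.1, h⟩
  · intro x hx y hy hxy
    rw [Set.Finite.mem_toFinset] at hx hy
    rintro ⟨w, h1, h2⟩
    rw [del_adj] at h1 h2
    exact hxy (hC v w x y h1.2.1.symm hx h1.1 hy h2.1)
  · ext x y
    unfold reb
    rw [SimpleGraph.fromRel_adj]
    constructor
    · rintro ⟨_, (h | ⟨rfl, h⟩) | (h | ⟨rfl, h⟩)⟩
      · exact ((del_adj v G x y).1 h).1
      · rw [Set.Finite.mem_toFinset] at h
        exact h
      · exact ((del_adj v G y x).1 h).1.symm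
      · rw [Set.Finite.mem_toFinset] at h
        exact SimpleGraph.Adj.symm h
    · intro h
      refine ⟨h.ne, ?_⟩
      by_cases hx : x = v
      · refine Or.inl (Or.inr ⟨hx, ?_⟩)
        rw [Set.Finite.mem_toFinset]
        rw [← hx]
        exact h
      · by_cases hy : y = v
        · refine Or.inr (Or.inr ⟨hy, ?_⟩)
          rw [Set.Finite.mem_toFinset]
          rw [← hy]
          exact h.symm
        · exact Or.inl (Or.inl ((del_adj v G x y).2 ⟨h, hx, hy⟩))

theorem step {V : Type} [Finite V] [DecidableEq V] (T : Finset V) (hT : T.Nonempty) (E B : ℝ)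
    (h1 : ∀ v ∈ T, ∀ G ∈ FT (T.erase v), ((nbhds G (T.erase v)).ncard : ℝ) ≤ E)
    (h2 : ∀ v ∈ T, ((FT (T.erase v)).ncard : ℝ) ≤ B) (hE : 0 ≤ E) :
    ((FT T).ncard : ℝ) ≤ T.card * (B * E) := by
  classical
  let FF : Finset V → Finset (SimpleGraph V) := fun S => (Set.toFinite (FT S)).toFinset
  let NB : SimpleGraph V → Finset V → Finset (Finset V) :=
    fun G S => (Set.toFinite (nbhds G S)).toFinset
  have hsub : FF T ⊆ T.biUnion fun v => (FF (T.erase v)).biUnion fun G' =>
      (NB G' (T.erase v)).image (reb v G') := by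
    intro G hG
    rw [Set.Finite.mem_toFinset] at hG
    obtain ⟨v, hv, G', hG', I, hI, h⟩ := cover T hT G hG
    rw [Finset.mem_biUnion]
    refine ⟨v, hv, ?_⟩
    rw [Finset.mem_biUnion]
    refine ⟨G', (Set.Finite.mem_toFinset _).2 hG', ?_⟩
    rw [Finset.mem_image]
    exact ⟨I, (Set.Finite.mem_toFinset _).2 hI, h⟩
  have hc : (FF T).card ≤ ∑ v ∈ T, ∑ G' ∈ FF (T.erase v), (NB G' (T.erase v)).card := by
    refine (Finset.card_le_card hsub).trans (Finset.card_biUnion_le.trans ?_)
    refine Finset.sum_le_sum fun v _ => Finset.card_biUnion_le.trans ?_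
    exact Finset.sum_le_sum fun G' _ => Finset.card_image_le
  have hc' : ((FF T).card : ℝ) ≤ ∑ v ∈ T, ∑ G' ∈ FF (T.erase v),
      ((NB G' (T.erase v)).card : ℝ) := by exact_mod_cast hc
  rw [Set.ncard_eq_toFinset_card _ (Set.toFinite (FT T))]
  refine hc'.trans ?_
  have h3 : ∀ v ∈ T, ∑ G' ∈ FF (T.erase v), ((NB G' (T.erase v)).card : ℝ) ≤ B * E := by
    intro v hv
    have h4 : ∑ G' ∈ FF (T.erase v), ((NB G' (T.erase v)).card : ℝ) ≤
        ∑ G' ∈ FF (T.erase v), E := by
      refine Finset.sum_le_sum fun G' hG' => ?_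
      rw [Set.Finite.mem_toFinset] at hG'
      have := h1 v hv G' hG'
      rwa [Set.ncard_eq_toFinset_card _ (Set.toFinite _)] at this
    refine h4.trans ?_
    rw [Finset.sum_const, nsmul_eq_mul]
    refine mul_le_mul_of_nonneg_right ?_ hE
    have := h2 v hv
    rwa [Set.ncard_eq_toFinset_card _ (Set.toFinite _)] at this
  refine (Finset.sum_le_sum h3).trans ?_
  rw [Finset.sum_const, nsmul_eq_mul]

theorem rowB (hA : StA) : StB := by
  classical
  obtain ⟨C, hC, hA⟩ := hA
  refine ⟨C + 2, by linarith, fun V _ => ?_⟩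
  have key : ∀ (t : ℕ) (T : Finset V), T.card = t →
      ((FT T).ncard : ℝ) ≤ Real.exp ((C + 2) * (t * (t : ℝ) ^ (1 / 2 : ℝ))) := by
    intro t
    induction t with
    | zero =>
      intro T hT
      have hT0 : T = ∅ := Finset.card_eq_zero.1 hT
      have h1 : FT T ⊆ {⊥} := by
        intro G hG
        rw [Set.mem_singleton_iff]
        ext x y
        constructor
        · intro h
          have := hG.2 x y h
          rw [hT0] at this
          exact absurd this (Finset.notMem_empty _)
        · intro h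
          exact absurd h (by simp)
      have h2 : (FT T).ncard ≤ 1 := by
        refine (Set.ncard_le_ncard h1 (Set.toFinite _)).trans ?_
        rw [Set.ncard_singleton]
      have h3 : ((FT T).ncard : ℝ) ≤ 1 := by exact_mod_cast h2
      refine h3.trans ?_
      rw [Nat.cast_zero, zero_mul, mul_zero, Real.exp_zero]
    | succ t ih =>
      intro T hT
      have hne : T.Nonempty := by
        rw [← Finset.card_pos, hT]
        exact Nat.succ_pos _
      have hcard : ∀ v ∈ T, (T.erase v).card = t := by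
        intro v hv
        rw [Finset.card_erase_of_mem hv, hT]
        rfl
      refine (step T hne (Real.exp (C * (t : ℝ) ^ (1 / 2 : ℝ)))
        (Real.exp ((C + 2) * (t * (t : ℝ) ^ (1 / 2 : ℝ)))) ?_ ?_ (Real.exp_pos _).le).trans ?_
      · intro v hv G hG
        have := hA V G hG.1 (T.erase v) hG.2
        rwa [hcard v hv] at this
      · intro v hv
        exact ih _ (hcard v hv)
      · rw [hT]
        have ht0 : (0 : ℝ) ≤ t := Nat.cast_nonneg _
        have hu : ((t + 1 : ℕ) : ℝ) = (t : ℝ) + 1 := by push_cast; ring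
        rw [hu]
        have hpos : (0 : ℝ) < (t : ℝ) + 1 := by linarith
        have hlog : Real.log ((t : ℝ) + 1) ≤ 2 * ((t : ℝ) + 1) ^ (1 / 2 : ℝ) := by
          have := Real.log_le_rpow_div (x := (t : ℝ) + 1) (ε := 1 / 2) hpos.le (by norm_num)
          linarith
        have hmono : (t : ℝ) ^ (1 / 2 : ℝ) ≤ ((t : ℝ) + 1) ^ (1 / 2 : ℝ) :=
          Real.rpow_le_rpow ht0 (by linarith) (by norm_num)
        set r := (t : ℝ) ^ (1 / 2 : ℝ) with hr
        set s := ((t : ℝ) + 1) ^ (1 / 2 : ℝ) with hs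
        have hexp : (t : ℝ) + 1 = Real.exp (Real.log ((t : ℝ) + 1)) := (Real.exp_log hpos).symm
        calc ((t : ℝ) + 1) * (Real.exp ((C + 2) * (t * r)) * Real.exp (C * r))
            = Real.exp (Real.log ((t : ℝ) + 1)) *
              (Real.exp ((C + 2) * (t * r)) * Real.exp (C * r)) := by rw [← hexp]
          _ = Real.exp (Real.log ((t : ℝ) + 1) + ((C + 2) * (t * r) + C * r)) := by
              rw [Real.exp_add, Real.exp_add]
          _ ≤ Real.exp ((C + 2) * (((t : ℝ) + 1) * s)) := by
              refine Real.exp_le_exp.2 ?_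
              have h1 : (C + 2) * (t * r) ≤ (C + 2) * (t * s) := by
                refine mul_le_mul_of_nonneg_left ?_ (by linarith)
                exact mul_le_mul_of_nonneg_left hmono ht0
              have h2 : C * r ≤ C * s := mul_le_mul_of_nonneg_left hmono hC.le
              nlinarith
  have h1 := key (Nat.card V) (Set.toFinite (Set.univ : Set V)).toFinset (by
    rw [← Set.ncard_eq_toFinset_card, Set.ncard_univ])
  have h2 : {G : SimpleGraph V | C4Free G} ⊆ FT (Set.toFinite (Set.univ : Set V)).toFinset := by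
    intro G hG
    refine ⟨hG, fun x y _ => ?_⟩
    rw [Set.Finite.mem_toFinset]
    trivial
  have h3 : {G : SimpleGraph V | C4Free G}.ncard ≤
      (FT (Set.toFinite (Set.univ : Set V)).toFinset).ncard :=
    Set.ncard_le_ncard h2 (Set.toFinite _)
  refine (Nat.cast_le.2 h3).trans (h1.trans ?_)
  refine Real.exp_le_exp.2 ?_
  refine mul_le_mul_of_nonneg_left ?_ (by linarith)
  rcases Nat.eq_zero_or_pos (Nat.card V) with h0 | h0
  · rw [h0]
    simp
  · have h4 : (0 : ℝ) < (Nat.card V : ℝ) := by exact_mod_cast h0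
    have h5 : (Nat.card V : ℝ) ^ (3 / 2 : ℝ) = (Nat.card V : ℝ) * (Nat.card V : ℝ) ^ (1 / 2 : ℝ) := by
      rw [show (3 / 2 : ℝ) = 1 + 1 / 2 by norm_num, Real.rpow_add h4, Real.rpow_one]
    rw [h5]

end Vale.Agent.P183.R2.H76
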